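import Mathlib
import Vale.Agent.Lib.Helper4.XProdGeom

namespace Vale.Agent.Results.P184.HorofunctionCriterion

open Vale.Agent.Lib.Helper4

theorem result {G : Type*} [Group G] {X : Type*} [PseudoMetricSpace X] [MulAction G X]
    [IsIsometricSMul G X] (q : ℕ) (e : Fin q → Fin q → G → ℂ)
    (hsum : ∀ i j, Summable (fun g => ‖e i j g‖))
    (hidem : ∀ i j g, ∑ k, ∑' h, e i k h * e k j (h⁻¹ * g) = e i j g)
    (g₀ : G) (f : X → ℝ) (K : ℝ)
    (hLip : ∀ x y, |f x - f y| ≤ K * dist x y)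
    (hquasi : ∀ z : G, z * g₀ = g₀ * z → ∀ x y : X, f (z • x) - f x = f (z • y) - f y)
    (x₀ : X) (hmove : f (g₀ • x₀) ≠ f x₀) :
    ∑' x : {x : G // IsConj g₀ x}, ∑ i, e i i x = 0 :=
  trace_vanish_of_horofunction q e hsum hidem g₀ f K hLip hquasi x₀ hmove

end Vale.Agent.Results.P184.HorofunctionCriterion
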