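import Mathlib
import Vale.Agent.Lib.Helper4.XProd

namespace Vale.Agent.Results.P184.Quasimorphism

open Vale.Agent.Lib.Helper4

theorem result {G : Type*} [Group G] (q : ℕ) (e : Fin q → Fin q → G → ℂ)
    (hsum : ∀ i j, Summable (fun g => ‖e i j g‖))
    (hidem : ∀ i j g, ∑ k, ∑' h, e i k h * e k j (h⁻¹ * g) = e i j g)
    (g₀ : G) (Φ : G → ℝ) (D : ℝ)
    (hΦ : ∀ a b, |Φ (a * b) - Φ a - Φ b| ≤ D)
    (hZ : ∀ z w, z * g₀ = g₀ * z → w * g₀ = g₀ * w → Φ (z * w) = Φ z + Φ w)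
    (hne : Φ g₀ ≠ 0) :
    ∑' x : {x : G // IsConj g₀ x}, ∑ i, e i i x = 0 :=
  trace_vanish_of_quasimorphism q e hsum hidem g₀ Φ D hΦ hZ hne

end Vale.Agent.Results.P184.Quasimorphism
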