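import Vale.Agent.Results.P184.Quasimorphism
import Vale.Agent.Results.P184.HorofunctionCriterion
import Vale.Agent.Results.P184.TreeAction

/-!
# P184: three criteria for the vanishing of Hattori–Stallings coefficients, in one statement

`e` is a `q × q` matrix of absolutely summable complex functions on a group `G` that is idempotent
for convolution, `G` acts by isometries on a pseudometric space `X`, and `g₀ ∈ G`. The sum of the
diagonal entries of `e` over the conjugacy class of `g₀` is zero as soon as one of the following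
holds.

First case (the hypotheses of the hand-in `Quasimorphism`; the space `X` plays no role here): there
is a quasimorphism `Φ : G → ℝ` that is additive on the centralizer of `g₀` and does not vanish at
`g₀`.

Second case (the hypotheses of the hand-in `HorofunctionCriterion`): there is a Lipschitz function
`f : X → ℝ` such that `f (z • x) - f x` does not depend on `x` for every `z` commuting with `g₀`,
and `f (g₀ • x₀) ≠ f x₀` for some `x₀`.

Third case (the hypotheses of the hand-in `TreeAction`): `X` satisfies the four-point condition,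
and `dist (g₀ ^ n • x₀) x₀ = n * ℓ` for all `n`, for some `x₀` and some `ℓ > 0`.
-/

namespace Vale.Agent.Results.P184.ThreeVanishingCriteria

theorem result {G : Type*} [Group G] {X : Type*} [PseudoMetricSpace X] [MulAction G X]
    [IsIsometricSMul G X] (q : ℕ) (e : Fin q → Fin q → G → ℂ)
    (hsum : ∀ i j, Summable (fun g => ‖e i j g‖))
    (hidem : ∀ i j g, ∑ k, ∑' h, e i k h * e k j (h⁻¹ * g) = e i j g)
    (g₀ : G)
    (hcase :
      (∃ (Φ : G → ℝ) (D : ℝ), (∀ a b, |Φ (a * b) - Φ a - Φ b| ≤ D) ∧
        (∀ z w, z * g₀ = g₀ * z → w * g₀ = g₀ * w → Φ (z * w) = Φ z + Φ w) ∧ Φ g₀ ≠ 0) ∨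
      (∃ (f : X → ℝ) (K : ℝ), (∀ x y, |f x - f y| ≤ K * dist x y) ∧
        (∀ z : G, z * g₀ = g₀ * z → ∀ x y : X, f (z • x) - f x = f (z • y) - f y) ∧
        ∃ x₀ : X, f (g₀ • x₀) ≠ f x₀) ∨
      ((∀ x y z w : X,
          dist x y + dist z w ≤ max (dist x z + dist y w) (dist x w + dist y z)) ∧
        ∃ (x₀ : X) (ℓ : ℝ), 0 < ℓ ∧ ∀ n : ℕ, dist (g₀ ^ n • x₀) x₀ = n * ℓ)) :
    ∑' x : {x : G // IsConj g₀ x}, ∑ i, e i i x = 0 := by
  rcases hcase with ⟨Φ, D, hΦ, hZ, hne⟩ | ⟨f, K, hLip, hquasi, x₀, hmove⟩ |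
    ⟨hfour, x₀, ℓ, hℓ, haxis⟩
  · exact Vale.Agent.Results.P184.Quasimorphism.result q e hsum hidem g₀ Φ D hΦ hZ hne
  · exact Vale.Agent.Results.P184.HorofunctionCriterion.result q e hsum hidem g₀ f K hLip
      hquasi x₀ hmove
  · exact Vale.Agent.Results.P184.TreeAction.result hfour q e hsum hidem g₀ x₀ ℓ hℓ haxis

end Vale.Agent.Results.P184.ThreeVanishingCriteria
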